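import Vale.Agent.P315.H330.Block

/-!
Online lemma with block restart and with EDGE WEIGHTS `a i e > 0` (weighted, unnormalised
relative entropy).  With `a = 1` this is `H330.Block` (up to the linear term of the potential).
The cap of an edge is `cap * a i e`.  Plain finite sums.
-/

open Finset

set_option linter.unusedSectionVars false

namespace Vale.Agent.P315.H93

open Vale.Agent.P315.H330 (pair pv pair_le_pair pair_sub_left)

variable {I E : Type*} [Fintype I] [Fintype E]

/-- weighted mass -/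
noncomputable def wS (a y : I → E → ℝ) : ℝ := ∑ i, ∑ e, a i e * y i e

/-- total weight of a path -/
noncomputable def wA (a : I → E → ℝ) (p : I → E) : ℝ := ∑ i, a i (p i)

/-- weighted relative entropy of the path `p` with respect to `y` -/
noncomputable def wpot (a y : I → E → ℝ) (p : I → E) : ℝ :=
  ∑ i, a i (p i) * (-Real.log (y i (p i)) - 1) + wS a y

/-- clipped decrease of one round, cap `cap * a` -/
noncomputable def wclA (cap : ℝ) (a D D' : I → E → ℝ) : I → E → ℝ :=
  fun i e => min (D i e - D' i e) (cap * a i e)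

/-- the state after the round (no normalisation) -/
noncomputable def updA (cap : ℝ) (a D D' q : I → E → ℝ) : I → E → ℝ :=
  fun i e => q i e * (1 + wclA cap a D D' i e / (cap * a i e))

/-- Solver specification.  `xh` = row marginals of the lane law, `q` = a positive smoothing. -/
structure SolvedA (PP : Set (I → E)) (cap : ℝ) (a D y xh q : I → E → ℝ) (e1 e2 S : ℝ) : Prop where
  xh_nonneg : ∀ i e, 0 ≤ xh i e
  q_pos : ∀ i e, 0 < q i e
  q_le : ∃ r : I → E → ℝ, (∀ i e, 0 ≤ r i e) ∧ wS a r ≤ e2 ∧ ∀ i e, q i e ≤ xh i e + r i e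
  mass : wS a q ≤ S
  opt : ∀ p ∈ PP, wpot a q p + cap⁻¹ * pair D xh ≤ wpot a y p + cap⁻¹ * pv D p + e1

section Round

variable {PP : Set (I → E)} {a D D' y xh q : I → E → ℝ} {cap e1 e2 S : ℝ}

lemma wclA_nonneg (hcap : 0 < cap) (ha : ∀ i e, 0 < a i e) (hD : ∀ i e, D' i e ≤ D i e)
    (i : I) (e : E) : 0 ≤ wclA cap a D D' i e :=
  le_min (sub_nonneg.2 (hD i e)) (mul_pos hcap (ha i e)).le

lemma rat_nonneg (hcap : 0 < cap) (ha : ∀ i e, 0 < a i e) (hD : ∀ i e, D' i e ≤ D i e)
    (i : I) (e : E) : 0 ≤ wclA cap a D D' i e / (cap * a i e) :=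
  div_nonneg (wclA_nonneg hcap ha hD i e) (mul_pos hcap (ha i e)).le

lemma rat_le_one (hcap : 0 < cap) (ha : ∀ i e, 0 < a i e) (i : I) (e : E) :
    wclA cap a D D' i e / (cap * a i e) ≤ 1 := by
  rw [div_le_one (mul_pos hcap (ha i e))]
  exact min_le_right _ _

lemma a_mul_rat (hcap : 0 < cap) (ha : ∀ i e, 0 < a i e) (i : I) (e : E) :
    a i e * (wclA cap a D D' i e / (cap * a i e)) = cap⁻¹ * wclA cap a D D' i e := by
  have h1 := (ha i e).ne'
  have h2 := hcap.ne'
  field_simp

lemma updA_pos (hcap : 0 < cap) (ha : ∀ i e, 0 < a i e) (hD : ∀ i e, D' i e ≤ D i e)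
    (hq : ∀ i e, 0 < q i e) (i : I) (e : E) : 0 < updA cap a D D' q i e :=
  mul_pos (hq i e) (by have := rat_nonneg hcap ha hD i e; linarith)

lemma wS_mono (ha : ∀ i e, 0 < a i e) {x y : I → E → ℝ} (h : ∀ i e, x i e ≤ y i e) :
    wS a x ≤ wS a y :=
  Finset.sum_le_sum fun i _ => Finset.sum_le_sum fun e _ =>
    mul_le_mul_of_nonneg_left (h i e) (ha i e).le

lemma wS_add (x y : I → E → ℝ) : wS a (fun i e => x i e + y i e) = wS a x + wS a y := by
  simp only [wS, mul_add, Finset.sum_add_distrib]

lemma wS_smul (c : ℝ) (y : I → E → ℝ) : wS a (fun i e => c * y i e) = c * wS a y := by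
  simp only [wS, Finset.mul_sum]
  refine Finset.sum_congr rfl fun i _ => Finset.sum_congr rfl fun e _ => ?_
  ring

lemma wS_nonneg (ha : ∀ i e, 0 < a i e) (hy : ∀ i e, 0 < y i e) : 0 ≤ wS a y :=
  Finset.sum_nonneg fun i _ => Finset.sum_nonneg fun e _ => (mul_pos (ha i e) (hy i e)).le

lemma wS_updA_le (hcap : 0 < cap) (ha : ∀ i e, 0 < a i e) (hq : ∀ i e, 0 < q i e) :
    wS a (updA cap a D D' q) ≤ 2 * wS a q := by
  have h : wS a (updA cap a D D' q) ≤ wS a (fun i e => 2 * q i e) := by
    refine wS_mono ha fun i e => ?_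
    have h1 := rat_le_one (D := D) (D' := D') hcap ha i e
    have h2 : updA cap a D D' q i e =
      q i e * (1 + wclA cap a D D' i e / (cap * a i e)) := rfl
    rw [h2]
    nlinarith [hq i e]
  rwa [wS_smul] at h

lemma wS_updA_sub (hcap : 0 < cap) (ha : ∀ i e, 0 < a i e) (q : I → E → ℝ) :
    wS a (updA cap a D D' q) - wS a q = cap⁻¹ * pair (wclA cap a D D') q := by
  simp only [wS, pair, Finset.mul_sum, ← Finset.sum_sub_distrib]
  refine Finset.sum_congr rfl fun i _ => Finset.sum_congr rfl fun e _ => ?_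
  have h := a_mul_rat (D := D) (D' := D') hcap ha i e
  simp only [updA]
  linear_combination (q i e) * h

/-- One round: the potential drops by the clipped decrease of the path, up to the regret. -/
theorem roundA (hcap : 0 < cap) (ha : ∀ i e, 0 < a i e) (hD : ∀ i e, D' i e ≤ D i e)
    (hS : SolvedA PP cap a D y xh q e1 e2 S) {p : I → E} (hp : p ∈ PP) :
    wpot a (updA cap a D D' q) p + 2 / 3 * (cap⁻¹ * pv (wclA cap a D D') p) ≤
      wpot a y p + cap⁻¹ * (pv D p - pair D' xh) + e1 + e2 := by
  have hci : 0 < cap⁻¹ := inv_pos.2 hcap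
  obtain ⟨r, hr0, hr1, hqr⟩ := hS.q_le
  have h1 := hS.opt p hp
  -- the update of the potential
  have hpot : wpot a (updA cap a D D' q) p + ∑ i, a i (p i) *
      Real.log (1 + wclA cap a D D' i (p i) / (cap * a i (p i))) =
      wpot a q p + cap⁻¹ * pair (wclA cap a D D') q := by
    rw [← wS_updA_sub hcap ha q]
    simp only [wpot]
    have : ∀ i, a i (p i) * (-Real.log (updA cap a D D' q i (p i)) - 1) =
        a i (p i) * (-Real.log (q i (p i)) - 1) - a i (p i) *
          Real.log (1 + wclA cap a D D' i (p i) / (cap * a i (p i))) := by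
      intro i
      have hq := hS.q_pos i (p i)
      have hf : 0 < 1 + wclA cap a D D' i (p i) / (cap * a i (p i)) := by
        have := rat_nonneg hcap ha hD i (p i); linarith
      simp only [updA]
      rw [Real.log_mul hq.ne' hf.ne']
      ring
    rw [Finset.sum_congr rfl fun i _ => this i, Finset.sum_sub_distrib]
    ring
  have hlogw : 2 / 3 * (cap⁻¹ * pv (wclA cap a D D') p) ≤
      ∑ i, a i (p i) * Real.log (1 + wclA cap a D D' i (p i) / (cap * a i (p i))) := by
    simp only [pv, Finset.mul_sum]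
    refine Finset.sum_le_sum fun i _ => ?_
    set s : ℝ := wclA cap a D D' i (p i) / (cap * a i (p i)) with hs
    have hs0 : 0 ≤ s := rat_nonneg hcap ha hD i (p i)
    have hs1 : s ≤ 1 := rat_le_one hcap ha i (p i)
    have h := Real.le_log_one_add_of_nonneg hs0
    have h2 : 2 / 3 * s ≤ 2 * s / (s + 2) := by
      rw [le_div_iff₀ (by linarith)]
      nlinarith
    have h3 : 2 / 3 * s ≤ Real.log (1 + s) := h2.trans h
    have h4 := mul_le_mul_of_nonneg_left h3 (ha i (p i)).le
    have h5 : a i (p i) * s = cap⁻¹ * wclA cap a D D' i (p i) := a_mul_rat hcap ha i (p i)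
    calc 2 / 3 * (cap⁻¹ * wclA cap a D D' i (p i)) = a i (p i) * (2 / 3 * s) := by
          rw [← h5]; ring
      _ ≤ _ := h4
  have hq2 : cap⁻¹ * pair (wclA cap a D D') q ≤ cap⁻¹ * (pair D xh - pair D' xh) + e2 := by
    have hz2 : cap⁻¹ * pair (wclA cap a D D') q ≤
        ∑ i, ∑ e, (cap⁻¹ * (wclA cap a D D' i e * xh i e) + a i e * r i e) := by
      simp only [pair, Finset.mul_sum]
      refine Finset.sum_le_sum fun i _ => Finset.sum_le_sum fun e _ => ?_
      have hw0 := mul_nonneg hci.le (wclA_nonneg hcap ha hD i e)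
      have hw1 : cap⁻¹ * wclA cap a D D' i e ≤ a i e := by
        rw [← a_mul_rat (D := D) (D' := D') hcap ha i e]
        have := mul_le_mul_of_nonneg_left (rat_le_one (D := D) (D' := D') hcap ha i e) (ha i e).le
        linarith
      have h1 := mul_le_mul_of_nonneg_left (hqr i e) hw0
      have h2 := mul_le_mul_of_nonneg_right hw1 (hr0 i e)
      nlinarith
    have hz3 : ∑ i, ∑ e, (cap⁻¹ * (wclA cap a D D' i e * xh i e) + a i e * r i e) =
        cap⁻¹ * pair (wclA cap a D D') xh + wS a r := by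
      simp only [pair, wS, Finset.mul_sum, Finset.sum_add_distrib]
    have hz4 : pair (wclA cap a D D') xh ≤ pair D xh - pair D' xh := by
      rw [← pair_sub_left]
      exact pair_le_pair hS.xh_nonneg fun i e => min_le_left _ _
    have hz5 := mul_le_mul_of_nonneg_left hz4 hci.le
    linarith
  have hexp : cap⁻¹ * (pv D p - pair D' xh) = cap⁻¹ * pv D p - cap⁻¹ * pair D' xh := by ring
  have hexp2 : cap⁻¹ * (pair D xh - pair D' xh) = cap⁻¹ * pair D xh - cap⁻¹ * pair D' xh := by
    ring
  rw [hexp2] at hq2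
  rw [hexp]
  linarith

end Round

lemma wpot_nonneg [DecidableEq E] {a y : I → E → ℝ} (ha : ∀ i e, 0 < a i e)
    (hy : ∀ i e, 0 < y i e) (p : I → E) : 0 ≤ wpot a y p := by
  have h : ∀ i, 0 ≤ a i (p i) * (-Real.log (y i (p i)) - 1) + ∑ e, a i e * y i e := by
    intro i
    have h1 := Real.log_le_sub_one_of_pos (hy i (p i))
    have h2 : a i (p i) * y i (p i) ≤ ∑ e, a i e * y i e :=
      Finset.single_le_sum (f := fun e => a i e * y i e)
        (fun e' _ => (mul_pos (ha i e') (hy i e')).le) (Finset.mem_univ (p i))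
    have h3 : a i (p i) * (-(y i (p i))) ≤ a i (p i) * (-Real.log (y i (p i)) - 1) :=
      mul_le_mul_of_nonneg_left (by linarith) (ha i (p i)).le
    linarith
  simp only [wpot, wS, ← Finset.sum_add_distrib]
  exact Finset.sum_nonneg fun i _ => h i

/-- comparison of the potentials when `c * y ≤ z` -/
lemma wpot_mono_scale {a y z : I → E → ℝ} {c : ℝ} (hc : 0 < c) (ha : ∀ i e, 0 < a i e)
    (hy : ∀ i e, 0 < y i e) (h : ∀ i e, c * y i e ≤ z i e) (p : I → E) :
    wpot a z p ≤ wpot a y p + wA a p * Real.log c⁻¹ + (wS a z - wS a y) := by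
  have h1 : ∀ i, a i (p i) * (-Real.log (z i (p i)) - 1) ≤
      a i (p i) * (-Real.log (y i (p i)) - 1) + a i (p i) * Real.log c⁻¹ := by
    intro i
    have h2 := Real.log_le_log (mul_pos hc (hy i (p i))) (h i (p i))
    rw [Real.log_mul hc.ne' (hy i (p i)).ne'] at h2
    rw [Real.log_inv, ← mul_add]
    exact mul_le_mul_of_nonneg_left (by linarith) (ha i (p i)).le
  simp only [wpot, wA]
  have h2 := Finset.sum_le_sum fun i (_ : i ∈ (Finset.univ : Finset I)) => h1 i
  rw [Finset.sum_add_distrib, ← Finset.sum_mul] at h2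
  linarith

/-- A run of the weighted machine: `r` rounds per block, `Y j k` the state in block `j` before
round `k`, `D t` the values at round `t = j * r + k`. -/
structure RunA (PP : Set (I → E)) (a : I → E → ℝ) (cap zeta e1 e2 S : ℝ) (r : ℕ) (act : ℕ → Prop)
    (D : ℕ → I → E → ℝ) (Y : ℕ → ℕ → I → E → ℝ) (X Q : ℕ → ℕ → I → E → ℝ) : Prop where
  a_pos : ∀ i e, 0 < a i e
  cap_pos : 0 < cap
  zeta_pos : 0 < zeta
  zeta_lt : zeta < 1
  anti : ∀ t i e, D (t + 1) i e ≤ D t i e
  solved : ∀ j k, k < r →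
    SolvedA PP cap a (D (j * r + k)) (Y j k) (X j k) (Q j k) e1 e2 S
  step : ∀ j k, k < r → Y j (k + 1) = updA cap a (D (j * r + k)) (D (j * r + k + 1)) (Q j k)
  start_pos : ∀ i e, 0 < Y 0 0 i e
  start_mass : wS a (Y 0 0) ≤ 2 * S
  next_act : ∀ j, act j → Y (j + 1) 0 = fun i e => (1 - zeta) * Y j r i e + zeta * Y j 0 i e
  next_not : ∀ j, ¬ act j → Y (j + 1) 0 = Y j 0

namespace RunA

variable {PP : Set (I → E)} {a : I → E → ℝ} {cap zeta e1 e2 S : ℝ} {r : ℕ} {act : ℕ → Prop}
  {D : ℕ → I → E → ℝ} {Y X Q : ℕ → ℕ → I → E → ℝ}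

lemma inBlock (h : RunA PP a cap zeta e1 e2 S r act D Y X Q) (j : ℕ)
    (h0 : (∀ i e, 0 < Y j 0 i e) ∧ wS a (Y j 0) ≤ 2 * S) :
    ∀ k, k ≤ r → (∀ i e, 0 < Y j k i e) ∧ wS a (Y j k) ≤ 2 * S := by
  intro k
  induction k with
  | zero => intro _; exact h0
  | succ k ih =>
    intro hk
    rw [h.step j k (by omega)]
    have hs := h.solved j k (by omega)
    refine ⟨fun i e => updA_pos h.cap_pos h.a_pos (h.anti _) hs.q_pos i e, ?_⟩
    have h1 := wS_updA_le (D := D (j * r + k)) (D' := D (j * r + k + 1)) h.cap_pos h.a_pos hs.q_pos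
    have h2 := hs.mass
    linarith

lemma good (h : RunA PP a cap zeta e1 e2 S r act D Y X Q) :
    ∀ j, (∀ i e, 0 < Y j 0 i e) ∧ wS a (Y j 0) ≤ 2 * S := by
  intro j
  induction j with
  | zero => exact ⟨h.start_pos, h.start_mass⟩
  | succ j ih =>
    by_cases ha : act j
    · rw [h.next_act j ha]
      have hr := h.inBlock j ih r le_rfl
      have h1 : 0 < 1 - zeta := by linarith [h.zeta_lt]
      refine ⟨fun i e => add_pos (mul_pos h1 (hr.1 i e)) (mul_pos h.zeta_pos (ih.1 i e)), ?_⟩
      rw [wS_add, wS_smul, wS_smul]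
      have a1 := mul_le_mul_of_nonneg_left (hr.2) h1.le
      have a2 := mul_le_mul_of_nonneg_left (ih.2) h.zeta_pos.le
      linarith
    · rw [h.next_not j ha]
      exact ih

/-- inside one block -/
lemma block (h : RunA PP a cap zeta e1 e2 S r act D Y X Q) {p : I → E} (hp : p ∈ PP) (j : ℕ) :
    ∀ k, k ≤ r → wpot a (Y j k) p
        + 2 / 3 * (cap⁻¹ * ∑ t ∈ range k, pv (wclA cap a (D (j * r + t)) (D (j * r + t + 1))) p) ≤
      wpot a (Y j 0) p + cap⁻¹ * ∑ t ∈ range k, (pv (D (j * r + t)) p
        - pair (D (j * r + t + 1)) (X j t)) + (k : ℝ) * (e1 + e2) := by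
  intro k
  induction k with
  | zero => intro _; simp
  | succ k ih =>
    intro hk
    have h1 := ih (by omega)
    have hk' : k < r := by omega
    have h2 := roundA h.cap_pos h.a_pos (h.anti (j * r + k)) (h.solved j k hk') hp
    rw [← h.step j k hk'] at h2
    rw [Finset.sum_range_succ, Finset.sum_range_succ]
    push_cast
    rw [mul_add, mul_add, mul_add]
    linarith

/-- **Online lemma with block restart and edge weights.** For every admissible path `p` and every
splitting of the active blocks below `N` into `A` and the rest. -/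
theorem regret [DecidableEq E] [DecidablePred act] (h : RunA PP a cap zeta e1 e2 S r act D Y X Q)
    {p : I → E} (hp : p ∈ PP) (N : ℕ) (A : ℕ → Prop) [DecidablePred A] (hA : ∀ j, A j → act j) :
    2 / 3 * ∑ j ∈ (range N).filter A,
        ∑ t ∈ range r, pv (wclA cap a (D (j * r + t)) (D (j * r + t + 1))) p ≤
      ∑ j ∈ (range N).filter A, ∑ t ∈ range r,
        (pv (D (j * r + t)) p - pair (D (j * r + t + 1)) (X j t))
      + cap * (wpot a (Y 0 0) p
        + (((range N).filter A).card : ℝ) * (wA a p * Real.log (1 - zeta)⁻¹ + zeta * (2 * S))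
        + (((range N).filter (fun j => act j ∧ ¬ A j)).card : ℝ) *
            (wA a p * Real.log zeta⁻¹ + 2 * S)
        + (((range N).filter A).card : ℝ) * ((r : ℝ) * (e1 + e2))) := by
  have hci : 0 < cap⁻¹ := inv_pos.2 h.cap_pos
  have h1z : 0 < 1 - zeta := by linarith [h.zeta_lt]
  set cA : ℝ := wA a p * Real.log (1 - zeta)⁻¹ + zeta * (2 * S) with hcA
  set cB : ℝ := wA a p * Real.log zeta⁻¹ + 2 * S with hcB
  have key : ∀ N : ℕ, wpot a (Y N 0) p + 2 / 3 * (cap⁻¹ * ∑ j ∈ (range N).filter A,
        ∑ t ∈ range r, pv (wclA cap a (D (j * r + t)) (D (j * r + t + 1))) p) ≤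
      wpot a (Y 0 0) p + cap⁻¹ * ∑ j ∈ (range N).filter A, ∑ t ∈ range r,
        (pv (D (j * r + t)) p - pair (D (j * r + t + 1)) (X j t))
        + (((range N).filter A).card : ℝ) * cA
        + (((range N).filter (fun j => act j ∧ ¬ A j)).card : ℝ) * cB
        + (((range N).filter A).card : ℝ) * ((r : ℝ) * (e1 + e2)) := by
    intro N
    induction N with
    | zero => simp
    | succ N ih =>
      rw [Finset.range_add_one, Finset.filter_insert, Finset.filter_insert]
      have hn1 : N ∉ (range N).filter A := by simp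
      have hn2 : N ∉ (range N).filter (fun j => act j ∧ ¬ A j) := by simp
      obtain ⟨hy, hys⟩ := h.good N
      have hSy := wS_nonneg h.a_pos hy
      by_cases hAN : A N
      · have ha := hA N hAN
        have hnot : ¬ (act N ∧ ¬ A N) := fun hh => hh.2 hAN
        rw [if_pos hAN, if_neg hnot]
        rw [Finset.sum_insert hn1, Finset.sum_insert hn1, Finset.card_insert_of_notMem hn1]
        obtain ⟨hr1, hr2⟩ := h.inBlock N (h.good N) r le_rfl
        have hSr := wS_nonneg h.a_pos hr1
        have hb := h.block hp N r le_rfl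
        have hm : wpot a (Y (N + 1) 0) p ≤ wpot a (Y N r) p + cA := by
          have h5 := wpot_mono_scale (z := Y (N + 1) 0) h1z h.a_pos hr1 (fun i e => by
            rw [h.next_act N ha]
            have := mul_nonneg h.zeta_pos.le (hy i e).le
            show (1 - zeta) * Y N r i e ≤ (1 - zeta) * Y N r i e + zeta * Y N 0 i e
            linarith) p
          have h6 : wS a (Y (N + 1) 0) - wS a (Y N r) ≤ zeta * (2 * S) := by
            rw [h.next_act N ha, wS_add, wS_smul, wS_smul]
            have a2 := mul_le_mul_of_nonneg_left hys h.zeta_pos.le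
            have a3 := mul_nonneg h.zeta_pos.le hSr
            nlinarith
          linarith
        push_cast
        rw [mul_add cap⁻¹, mul_add cap⁻¹]
        nlinarith [ih, hb, hm]
      · rw [if_neg hAN]
        by_cases ha : act N
        · rw [if_pos (⟨ha, hAN⟩ : act N ∧ ¬ A N), Finset.card_insert_of_notMem hn2]
          obtain ⟨hr1, hr2⟩ := h.inBlock N (h.good N) r le_rfl
          have hm : wpot a (Y (N + 1) 0) p ≤ wpot a (Y N 0) p + cB := by
            have h5 := wpot_mono_scale (z := Y (N + 1) 0) h.zeta_pos h.a_pos hy (fun i e => by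
              rw [h.next_act N ha]
              have := mul_nonneg h1z.le (hr1 i e).le
              show zeta * Y N 0 i e ≤ (1 - zeta) * Y N r i e + zeta * Y N 0 i e
              linarith) p
            have h6 : wS a (Y (N + 1) 0) - wS a (Y N 0) ≤ 2 * S := by
              have := (h.good (N + 1)).2
              linarith
            linarith
          push_cast
          nlinarith [ih, hm]
        · have hnot : ¬ (act N ∧ ¬ A N) := fun hh => ha hh.1
          rw [if_neg hnot, h.next_not N ha]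
          exact ih
  have hk := key N
  have hpos := wpot_nonneg h.a_pos (h.good N).1 p
  have h2 : 2 / 3 * (cap⁻¹ * ∑ j ∈ (range N).filter A,
        ∑ t ∈ range r, pv (wclA cap a (D (j * r + t)) (D (j * r + t + 1))) p) ≤
      wpot a (Y 0 0) p + cap⁻¹ * ∑ j ∈ (range N).filter A, ∑ t ∈ range r,
        (pv (D (j * r + t)) p - pair (D (j * r + t + 1)) (X j t))
        + (((range N).filter A).card : ℝ) * cA
        + (((range N).filter (fun j => act j ∧ ¬ A j)).card : ℝ) * cB
        + (((range N).filter A).card : ℝ) * ((r : ℝ) * (e1 + e2)) := by linarith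
  have h3 := mul_le_mul_of_nonneg_left h2 h.cap_pos.le
  have e1' : cap * (2 / 3 * (cap⁻¹ * ∑ j ∈ (range N).filter A,
        ∑ t ∈ range r, pv (wclA cap a (D (j * r + t)) (D (j * r + t + 1))) p)) =
      2 / 3 * ∑ j ∈ (range N).filter A,
        ∑ t ∈ range r, pv (wclA cap a (D (j * r + t)) (D (j * r + t + 1))) p := by
    rw [mul_left_comm cap, ← mul_assoc cap, mul_inv_cancel₀ h.cap_pos.ne', one_mul]
  have e2' : cap * (cap⁻¹ * ∑ j ∈ (range N).filter A, ∑ t ∈ range r,
        (pv (D (j * r + t)) p - pair (D (j * r + t + 1)) (X j t))) =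
      ∑ j ∈ (range N).filter A, ∑ t ∈ range r,
        (pv (D (j * r + t)) p - pair (D (j * r + t + 1)) (X j t)) := by
    rw [← mul_assoc, mul_inv_cancel₀ h.cap_pos.ne', one_mul]
  rw [e1'] at h3
  rw [mul_add, mul_add, mul_add, mul_add, e2'] at h3
  rw [mul_add, mul_add, mul_add]
  linarith

end RunA

end Vale.Agent.P315.H93
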