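import Vale.Agent.P315.H782.Greedy
import Vale.Agent.P315.H93.WBlock

/-!
Greedy solver for the WEIGHTED entropy (edge weights `a i e > 0`, all admissible paths of the same
total weight `A0`; a slack row makes this true for paths with a budget).  `T` paths are chosen one
after the other, each minimising `∑ i, (L i (q i) + a i (q i) * H (count))`, `H` = rounded harmonic
numbers (helper782's `HF`).  Output: uniform law on the `T` paths.
-/

open Finset

set_option linter.unusedSectionVars false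

namespace Vale.Agent.P315.H93

open Vale.Agent.P315.H330 (pair pv)
open Vale.Agent.P315.H782 (cnt xx HF)

noncomputable section

variable {I E : Type*} [Fintype I] [Fintype E] [DecidableEq E]

/-- Cost of the path `q` at time `t`. -/
def avalA (H : ℕ → ℝ) (a L : I → E → ℝ) (p : ℕ → I → E) (t : ℕ) (q : I → E) : ℝ :=
  ∑ i, (L i (q i) + a i (q i) * H (cnt p t i (q i)))

/-- The greedy choice. -/
structure GreedyA (H : ℕ → ℝ) (a L : I → E → ℝ) (PP : Set (I → E)) (T : ℕ)
    (p : ℕ → I → E) : Prop where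
  mem : ∀ t, t < T → p t ∈ PP
  min : ∀ t, t < T → ∀ q ∈ PP, avalA H a L p t (p t) ≤ avalA H a L p t q

/-- weighted negative entropy -/
def entA (a x : I → E → ℝ) : ℝ := ∑ i, ∑ e, a i e * (x i e * Real.log (x i e))

/-- total weight of all edges -/
def wT (a : I → E → ℝ) : ℝ := ∑ i, ∑ e, a i e

omit [DecidableEq E] in
theorem val_eq_pair (A x : I → E → ℝ) : H782.val A x = pair A x := by
  unfold H782.val pair
  exact Finset.sum_congr rfl fun i _ => Finset.sum_congr rfl fun e _ => mul_comm _ _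

omit [DecidableEq E] in
theorem wS_eq_val (a x : I → E → ℝ) : wS a x = H782.val a x := by
  unfold H782.val wS
  exact Finset.sum_congr rfl fun i _ => Finset.sum_congr rfl fun e _ => mul_comm _ _

omit [DecidableEq E] in
/-- Joint Gibbs inequality. -/
theorem gibbsA {a x y : I → E → ℝ} {A0 : ℝ} (ha : ∀ i e, 0 < a i e) (hx : ∀ i e, 0 ≤ x i e)
    (hA : wS a x = A0) (hA0 : 0 < A0) (hy : ∀ i e, 0 < y i e) (hS : 0 < wS a y) :
    ∑ i, ∑ e, a i e * (x i e * Real.log (y i e)) ≤ entA a x + A0 * Real.log (wS a y / A0) := by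
  set Q := wS a y / A0 with hQ
  have hQ0 : 0 < Q := div_pos hS hA0
  have key : ∀ i e, a i e * (x i e * Real.log (y i e)) - a i e * (x i e * Real.log (x i e))
      - (a i e * x i e) * Real.log Q ≤ (a i e * y i e) / Q - a i e * x i e := by
    intro i e
    rcases (hx i e).eq_or_lt with h0 | h0
    · rw [← h0]
      simp only [zero_mul, mul_zero, sub_zero]
      exact (div_pos (mul_pos (ha i e) (hy i e)) hQ0).le
    · have h1 : Real.log (y i e / (Q * x i e)) ≤ y i e / (Q * x i e) - 1 :=
        Real.log_le_sub_one_of_pos (div_pos (hy i e) (mul_pos hQ0 h0))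
      rw [Real.log_div (hy i e).ne' (mul_pos hQ0 h0).ne', Real.log_mul hQ0.ne' h0.ne'] at h1
      have h2 := mul_le_mul_of_nonneg_left h1 (mul_pos (ha i e) h0).le
      have h3 : (a i e * x i e) * (y i e / (Q * x i e) - 1) = (a i e * y i e) / Q - a i e * x i e := by
        field_simp
      rw [h3] at h2
      linarith
  have hs := Finset.sum_le_sum fun i (_ : i ∈ (Finset.univ : Finset I)) =>
    Finset.sum_le_sum fun e (_ : e ∈ (Finset.univ : Finset E)) => key i e
  simp only [Finset.sum_sub_distrib, ← Finset.sum_mul, ← Finset.sum_div] at hs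
  have e1 : ∑ i, ∑ e, a i e * x i e = A0 := hA
  have e2 : (∑ i, ∑ e, a i e * y i e) = wS a y := rfl
  rw [e1, e2] at hs
  have e3 : wS a y / Q = A0 := by
    rw [hQ]; field_simp
  rw [e3] at hs
  unfold entA
  linarith

section Basic

variable {H : ℕ → ℝ} {a L : I → E → ℝ} {PP : Set (I → E)} {T : ℕ} {p : ℕ → I → E} {A0 g ζ : ℝ}

theorem wS_cnt (a : I → E → ℝ) (p : ℕ → I → E) (t : ℕ) :
    wS a (fun i e => (cnt p t i e : ℝ)) = ∑ s ∈ range t, wA a (p s) := by
  unfold wS wA
  rw [Finset.sum_comm (s := range t)]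
  refine Finset.sum_congr rfl fun i _ => ?_
  rw [← H782.sum_cnt p (a i) t i]
  exact Finset.sum_congr rfl fun e _ => mul_comm _ _

theorem wS_cnt_eq (hA : ∀ q ∈ PP, wA a q = A0) (hp : ∀ t, t < T → p t ∈ PP) {t : ℕ} (ht : t ≤ T) :
    wS a (fun i e => (cnt p t i e : ℝ)) = t * A0 := by
  rw [wS_cnt]
  rw [Finset.sum_congr rfl fun s hs => hA (p s) (hp s (by have := Finset.mem_range.mp hs; omega))]
  simp

theorem wS_xx_eq (hA : ∀ q ∈ PP, wA a q = A0) (hp : ∀ t, t < T → p t ∈ PP) (hT : 0 < T) :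
    wS a (xx p T) = A0 := by
  have hT' : (T : ℝ) ≠ 0 := by positivity
  have h1 := wS_cnt_eq (T := T) hA hp le_rfl
  have h2 : wS a (xx p T) = (1 / (T : ℝ)) * wS a (fun i e => (cnt p T i e : ℝ)) := by
    rw [← wS_smul]
    unfold xx
    congr 1
    funext i e
    ring
  rw [h2, h1]
  field_simp

theorem wS_cnt_add (hA : ∀ q ∈ PP, wA a q = A0) (hp : ∀ t, t < T → p t ∈ PP) {t : ℕ}
    (ht : t ≤ T) : wS a (fun i e => (cnt p t i e : ℝ) + 1) = t * A0 + wT a := by
  rw [wS_add, wS_cnt_eq hA hp ht]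
  simp [wS, wT]

theorem avalA_mono (ha : ∀ i e, 0 < a i e) (hH : Monotone H) (L : I → E → ℝ) (p : ℕ → I → E)
    (q : I → E) {s t : ℕ} (hst : s ≤ t) : avalA H a L p s q ≤ avalA H a L p t q := by
  unfold avalA
  refine Finset.sum_le_sum fun i _ => ?_
  have h1 := hH (H782.cnt_mono p i (q i) hst)
  have h2 := mul_le_mul_of_nonneg_left h1 (ha i (q i)).le
  linarith

/-- (U): upper bound for the greedy value, comparison with the final law. -/
theorem greedyA_upper (ha : ∀ i e, 0 < a i e) (hA0 : 0 < A0) (hA : ∀ q ∈ PP, wA a q = A0)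
    (hE : 0 < wT a) (hH : HF H T g ζ)
    (hp : GreedyA H a L PP T p) (hT : 0 < T) {t : ℕ} (ht : t < T) :
    avalA H a L p t (p t) ≤ H782.val L (xx p T) + entA a (xx p T)
      + A0 * (g + Real.log (t + wT a / A0)) := by
  have hT' : (0 : ℝ) < T := by positivity
  have h1 : (T : ℝ) * avalA H a L p t (p t)
      ≤ (T : ℝ) * H782.val (fun i e => L i e + a i e * H (cnt p t i e)) (xx p T) := by
    rw [H782.val_xx _ p hT]
    calc (T : ℝ) * avalA H a L p t (p t) = ∑ _r ∈ range T, avalA H a L p t (p t) := by simp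
      _ ≤ ∑ r ∈ range T, avalA H a L p t (p r) :=
          Finset.sum_le_sum fun r hr => hp.min t ht _ (hp.mem r (Finset.mem_range.mp hr))
      _ = _ := rfl
  have h2 : avalA H a L p t (p t) ≤ H782.val (fun i e => L i e + a i e * H (cnt p t i e)) (xx p T) :=
    le_of_mul_le_mul_left h1 hT'
  refine h2.trans ?_
  have hx0 := H782.xx_nonneg p T
  have hxA := wS_xx_eq hA hp.mem hT
  have hsum := wS_cnt_add hA hp.mem ht.le
  have hS : 0 < wS a (fun i e => (cnt p t i e : ℝ) + 1) := by
    rw [hsum]; positivity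
  have hg := gibbsA ha hx0 hxA hA0 (fun i e => (by positivity : (0 : ℝ) < (cnt p t i e : ℝ) + 1)) hS
  have hdiv : (t * A0 + wT a) / A0 = t + wT a / A0 := by field_simp
  rw [hsum, hdiv] at hg
  have h3 : H782.val (fun i e => L i e + a i e * H (cnt p t i e)) (xx p T) ≤
      H782.val L (xx p T) + ∑ i, ∑ e, a i e * (xx p T i e * Real.log ((cnt p t i e : ℝ) + 1))
        + g * wS a (xx p T) := by
    unfold H782.val wS
    rw [Finset.mul_sum, ← Finset.sum_add_distrib, ← Finset.sum_add_distrib]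
    refine Finset.sum_le_sum fun i _ => ?_
    rw [Finset.mul_sum, ← Finset.sum_add_distrib, ← Finset.sum_add_distrib]
    refine Finset.sum_le_sum fun e _ => ?_
    have h4 := hH.up (cnt p t i e)
    have h5 := mul_le_mul_of_nonneg_left h4 (mul_nonneg (ha i e).le (hx0 i e))
    nlinarith
  rw [hxA] at h3
  linarith

/-- (L): lower bound for the sum of the greedy values. -/
theorem greedyA_lower (ha : ∀ i e, 0 < a i e) (hA : ∀ q ∈ PP, wA a q = A0)
    (hp : ∀ t, t < T → p t ∈ PP) (hH : HF H T g ζ) (L : I → E → ℝ) (hT : 0 < T) :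
    (T : ℝ) * (H782.val L (xx p T) + entA a (xx p T))
      + A0 * (T * Real.log T - (1 - g + ζ) * T)
      ≤ ∑ t ∈ range T, avalA H a L p t (p t) := by
  have hT' : (0 : ℝ) < T := by positivity
  have esum : ∀ i, ∑ t ∈ range T, a i (p t i) * H (cnt p t i (p t i)) =
      ∑ e, a i e * ∑ j ∈ range (cnt p T i e), H j := by
    intro i
    clear hT hT' hp hH
    induction T with
    | zero => simp [cnt]
    | succ T ih =>
      rw [Finset.sum_range_succ, ih]
      have : ∀ e, a i e * ∑ j ∈ range (cnt p (T + 1) i e), H j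
          = a i e * ∑ j ∈ range (cnt p T i e), H j
            + (if p T i = e then a i e * H (cnt p T i e) else 0) := by
        intro e
        rw [H782.cnt_succ]
        split_ifs with h
        · rw [Finset.sum_range_succ, mul_add]
        · simp
      rw [Finset.sum_congr rfl fun e _ => this e, Finset.sum_add_distrib, Finset.sum_ite_eq]
      simp
  have e1 : ∑ t ∈ range T, avalA H a L p t (p t)
      = ∑ t ∈ range T, ∑ i, L i (p t i) + ∑ i, ∑ e, a i e * ∑ j ∈ range (cnt p T i e), H j := by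
    unfold avalA
    rw [Finset.sum_congr rfl fun t _ => Finset.sum_add_distrib, Finset.sum_add_distrib]
    congr 1
    rw [Finset.sum_comm]
    exact Finset.sum_congr rfl fun i _ => esum i
  rw [e1, ← H782.val_xx L p hT, mul_add]
  have hcA := wS_cnt_eq (T := T) hA hp le_rfl
  have key : (T : ℝ) * entA a (xx p T) + A0 * (T * Real.log T - (1 - g + ζ) * T)
      ≤ ∑ i, ∑ e, a i e * ∑ j ∈ range (cnt p T i e), H j := by
    have h1 : ∀ i e, (T : ℝ) * (a i e * (xx p T i e * Real.log (xx p T i e)))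
        + (a i e * (cnt p T i e : ℝ)) * Real.log T - (1 - g + ζ) * (a i e * cnt p T i e)
        ≤ a i e * ∑ j ∈ range (cnt p T i e), H j := by
      intro i e
      refine le_trans (le_of_eq ?_)
        (mul_le_mul_of_nonneg_left (hH.low (cnt p T i e) (H782.cnt_le p T i e)) (ha i e).le)
      rcases Nat.eq_zero_or_pos (cnt p T i e) with h0 | h0
      · simp [xx, h0]
      · have hc : (0 : ℝ) < cnt p T i e := by exact_mod_cast h0
        unfold xx
        rw [Real.log_div hc.ne' hT'.ne']
        field_simp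
        ring
    have h2 := Finset.sum_le_sum fun i (_ : i ∈ (Finset.univ : Finset I)) =>
      Finset.sum_le_sum fun e (_ : e ∈ (Finset.univ : Finset E)) => h1 i e
    simp only [Finset.sum_sub_distrib, Finset.sum_add_distrib, ← Finset.mul_sum,
      ← Finset.sum_mul] at h2
    have e2 : ∑ i, ∑ e, a i e * (cnt p T i e : ℝ) = T * A0 := hcA
    rw [e2] at h2
    have e3 : entA a (xx p T) = ∑ i, ∑ e, a i e * (xx p T i e * Real.log (xx p T i e)) := rfl
    rw [e3]
    linarith
  linarith

end Basic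

/-- Stirling type upper bound, real shift. -/
theorem sum_log_leR {m : ℝ} (hm : 0 < m) (n : ℕ) :
    ∑ t ∈ range n, Real.log ((t : ℝ) + m)
      ≤ ((n : ℝ) + m) * Real.log ((n : ℝ) + m) - n - m * Real.log m := by
  induction n with
  | zero => simp
  | succ n ih =>
    rw [Finset.sum_range_succ]
    have hy : (0 : ℝ) < (n : ℝ) + m := by positivity
    have hy1 : (0 : ℝ) < (n : ℝ) + m + 1 := by positivity
    have h1 : 1 ≤ ((n : ℝ) + m + 1) * (Real.log ((n : ℝ) + m + 1) - Real.log ((n : ℝ) + m)) := by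
      have h2 : Real.log (((n : ℝ) + m) / ((n : ℝ) + m + 1))
          ≤ ((n : ℝ) + m) / ((n : ℝ) + m + 1) - 1 :=
        Real.log_le_sub_one_of_pos (div_pos hy hy1)
      rw [Real.log_div hy.ne' hy1.ne'] at h2
      have h3 : ((n : ℝ) + m) / ((n : ℝ) + m + 1) - 1 = - (1 / ((n : ℝ) + m + 1)) := by
        field_simp
        ring
      rw [h3] at h2
      have h4 : 1 / ((n : ℝ) + m + 1) ≤ Real.log ((n : ℝ) + m + 1) - Real.log ((n : ℝ) + m) := by
        linarith
      calc (1 : ℝ) = ((n : ℝ) + m + 1) * (1 / ((n : ℝ) + m + 1)) := by field_simp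
        _ ≤ _ := mul_le_mul_of_nonneg_left h4 hy1.le
    have e2 : ((n + 1 : ℕ) : ℝ) + m = (n : ℝ) + m + 1 := by push_cast; ring
    rw [e2]
    push_cast
    nlinarith [h1, ih]

/-- The error of the dual bound (`m = wT a / A0`). -/
def errA (m : ℝ) (T s : ℕ) (ζ : ℝ) : ℝ :=
  (m * (1 + Real.log (T / m)) + ((s : ℝ) - m) ^ 2 / T + ζ * T) / s

section Dual

variable {H : ℕ → ℝ} {a L : I → E → ℝ} {PP : Set (I → E)} {T : ℕ} {p : ℕ → I → E} {A0 g ζ : ℝ}

/-- (D): after `T` steps every path is expensive. -/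
theorem greedyA_dual (ha : ∀ i e, 0 < a i e) (hA0 : 0 < A0) (hA : ∀ q ∈ PP, wA a q = A0)
    (hE : 0 < wT a) (hH : HF H T g ζ) (hp : GreedyA H a L PP T p) (hT : 0 < T)
    {s : ℕ} (hs : 0 < s) (hsT : s ≤ T) {q : I → E} (hq : q ∈ PP) :
    H782.val L (xx p T) + entA a (xx p T)
      + A0 * (g + Real.log T - errA (wT a / A0) T s ζ) ≤ avalA H a L p T q := by
  have hT' : (0 : ℝ) < T := by positivity
  have hs' : (0 : ℝ) < s := by positivity
  set m : ℝ := wT a / A0 with hmdef
  have hm' : (0 : ℝ) < m := div_pos hE hA0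
  set F := H782.val L (xx p T) + entA a (xx p T) with hF
  have hlow := greedyA_lower ha hA hp.mem hH L hT
  rw [← hF] at hlow
  obtain ⟨M, hM⟩ : ∃ M : ℝ, M = A0 := ⟨A0, rfl⟩
  rw [← hM] at hlow ⊢
  have hM0 : 0 ≤ M := by rw [hM]; exact hA0.le
  have hup : ∀ t, t < T → avalA H a L p t (p t) ≤ F + M * (g + Real.log (t + m)) := by
    intro t ht
    rw [hM]
    exact greedyA_upper ha hA0 hA hE hH hp hT ht
  clear_value F m
  -- split the sum
  have hsplit : ∑ t ∈ range T, avalA H a L p t (p t)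
      = ∑ t ∈ range (T - s), avalA H a L p t (p t)
        + ∑ t ∈ Ico (T - s) T, avalA H a L p t (p t) := by
    rw [Finset.sum_range_add_sum_Ico _ (Nat.sub_le T s)]
  have h1 : ∑ t ∈ range (T - s), avalA H a L p t (p t)
      ≤ ((T - s : ℕ) : ℝ) * (F + M * g)
        + M * (((T - s : ℕ) : ℝ) + m) * Real.log (((T - s : ℕ) : ℝ) + m)
        - M * ((T - s : ℕ) : ℝ) - M * (m * Real.log m) := by
    have h1a : ∑ t ∈ range (T - s), avalA H a L p t (p t)
        ≤ ∑ t ∈ range (T - s), (F + M * (g + Real.log (t + m))) :=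
      Finset.sum_le_sum fun t ht => hup t (by
        have := Finset.mem_range.mp ht
        omega)
    have h1b : ∑ t ∈ range (T - s), (F + M * (g + Real.log (t + m)))
        = ((T - s : ℕ) : ℝ) * (F + M * g) + M * ∑ t ∈ range (T - s), Real.log ((t : ℝ) + m) := by
      rw [Finset.sum_add_distrib, ← Finset.mul_sum, Finset.sum_add_distrib, Finset.sum_const,
        Finset.sum_const, Finset.card_range, nsmul_eq_mul, nsmul_eq_mul]
      ring
    have h1c := mul_le_mul_of_nonneg_left (sum_log_leR hm' (T - s)) hM0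
    rw [h1b] at h1a
    linarith
  have h2 : ∑ t ∈ Ico (T - s) T, avalA H a L p t (p t) ≤ s * avalA H a L p T q := by
    have h2a : ∑ t ∈ Ico (T - s) T, avalA H a L p t (p t)
        ≤ ∑ _t ∈ Ico (T - s) T, avalA H a L p T q := by
      refine Finset.sum_le_sum fun t ht => ?_
      rw [Finset.mem_Ico] at ht
      exact (hp.min t ht.2 q hq).trans (avalA_mono ha hH.mono L p q ht.2.le)
    rw [Finset.sum_const, Nat.card_Ico, nsmul_eq_mul] at h2a
    have : T - (T - s) = s := by omega
    rwa [this] at h2a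
  have hn : ((T - s : ℕ) : ℝ) = (T : ℝ) - s := by
    rw [Nat.cast_sub hsT]
  rw [hn] at h1
  -- logarithm estimate
  have hnm : (0 : ℝ) < (T : ℝ) - s + m := by
    have : (s : ℝ) ≤ T := by exact_mod_cast hsT
    linarith
  have h3 : Real.log ((T : ℝ) - s + m) ≤ Real.log T + (m - s) / T := by
    have h3a : Real.log (((T : ℝ) - s + m) / T) ≤ ((T : ℝ) - s + m) / T - 1 :=
      Real.log_le_sub_one_of_pos (div_pos hnm hT')
    rw [Real.log_div hnm.ne' hT'.ne'] at h3a
    have h3b : ((T : ℝ) - s + m) / T - 1 = (m - s) / T := by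
      field_simp
      ring
    rw [h3b] at h3a
    linarith
  have h4 : ((T : ℝ) - s + m) * Real.log ((T : ℝ) - s + m)
      ≤ ((T : ℝ) - s + m) * Real.log T + (m - s) + ((s : ℝ) - m) ^ 2 / T := by
    have h4a := mul_le_mul_of_nonneg_left h3 hnm.le
    have h4b : ((T : ℝ) - s + m) * (Real.log T + (m - s) / T)
        = ((T : ℝ) - s + m) * Real.log T + (m - s) + ((s : ℝ) - m) ^ 2 / T := by
      field_simp
      ring
    rwa [h4b] at h4a
  have h5 := mul_le_mul_of_nonneg_left h4 hM0
  have hlogd : Real.log ((T : ℝ) / m) = Real.log T - Real.log m :=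
    Real.log_div hT'.ne' hm'.ne'
  -- final combination
  have h6 : s * (F + M * (g + Real.log T))
      - M * (m * (1 + Real.log (T / m)) + ((s : ℝ) - m) ^ 2 / T + ζ * T)
      ≤ s * avalA H a L p T q := by
    rw [hlogd]
    rw [hsplit] at hlow
    nlinarith [hlow, h1, h2, h5]
  have h7 : s * (F + M * (g + Real.log T - errA m T s ζ))
      = s * (F + M * (g + Real.log T))
      - M * (m * (1 + Real.log (T / m)) + ((s : ℝ) - m) ^ 2 / T + ζ * T) := by
    unfold errA
    field_simp
    ring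
  rw [← h7] at h6
  exact le_of_mul_le_mul_left h6 hs'

/-- the smoothed law: `(count + 1) / T` -/
def qq (p : ℕ → I → E) (T : ℕ) : I → E → ℝ := fun i e => ((cnt p T i e : ℝ) + 1) / T

/-- The dual bound in logarithmic form. -/
theorem dual_log (ha : ∀ i e, 0 < a i e) (hA0 : 0 < A0) (hA : ∀ q ∈ PP, wA a q = A0)
    (hE : 0 < wT a) (hH : HF H T g ζ) (hp : GreedyA H a L PP T p) (hT : 0 < T)
    {s : ℕ} (hs : 0 < s) (hsT : s ≤ T) {q : I → E} (hq : q ∈ PP) :
    ∑ i, a i (q i) * (-Real.log (qq p T i (q i))) ≤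
      pv L q - (pair L (xx p T) + entA a (xx p T)) + A0 * errA (wT a / A0) T s ζ := by
  have hT' : (0 : ℝ) < T := by positivity
  have h1 := greedyA_dual ha hA0 hA hE hH hp hT hs hsT hq
  have h2 : avalA H a L p T q ≤ pv L q + ∑ i, a i (q i) * Real.log ((cnt p T i (q i) : ℝ) + 1)
      + g * wA a q := by
    unfold avalA pv wA
    rw [Finset.mul_sum, ← Finset.sum_add_distrib, ← Finset.sum_add_distrib]
    refine Finset.sum_le_sum fun i _ => ?_
    have h3 := mul_le_mul_of_nonneg_left (hH.up (cnt p T i (q i))) (ha i (q i)).le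
    linarith
  have h3 : ∑ i, a i (q i) * (-Real.log (qq p T i (q i))) =
      wA a q * Real.log T - ∑ i, a i (q i) * Real.log ((cnt p T i (q i) : ℝ) + 1) := by
    unfold wA qq
    rw [Finset.sum_mul, ← Finset.sum_sub_distrib]
    refine Finset.sum_congr rfl fun i _ => ?_
    rw [Real.log_div (by positivity) hT'.ne']
    ring
  rw [hA q hq] at h2 h3
  rw [h3]
  rw [val_eq_pair] at h1
  nlinarith [h1, h2]

end Dual

section Solve

variable {a D y : I → E → ℝ} {PP : Set (I → E)} {cap A0 : ℝ}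

omit [DecidableEq E] in
/-- relative entropy is nonnegative -/
theorem rel_nonneg {a x y : I → E → ℝ} (ha : ∀ i e, 0 < a i e) (hx : ∀ i e, 0 ≤ x i e)
    (hy : ∀ i e, 0 < y i e) :
    wS a x - wS a y ≤ entA a x - ∑ i, ∑ e, a i e * (x i e * Real.log (y i e)) := by
  unfold wS entA
  rw [← Finset.sum_sub_distrib, ← Finset.sum_sub_distrib]
  refine Finset.sum_le_sum fun i _ => ?_
  rw [← Finset.sum_sub_distrib, ← Finset.sum_sub_distrib]
  refine Finset.sum_le_sum fun e _ => ?_
  have h := H330.coord_gibbs (x := x i e) (y := y i e) (s := 0) (hx i e) (hy i e).le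
    (fun h => absurd h (hy i e).ne') le_rfl zero_le_one
  have h2 := mul_le_mul_of_nonneg_left h (ha i e).le
  nlinarith

omit [DecidableEq E] in
/-- **From the dual form to the solver specification.**  `L` is an approximation of
`D / cap - a log y` up to `δ a`. -/
theorem solvedA_of_dual {L xh q r : I → E → ℝ} {e δ e2 S : ℝ} (ha : ∀ i e, 0 < a i e)
    (hy : ∀ i e, 0 < y i e) (hA : ∀ p ∈ PP, wA a p = A0)
    (hL : ∀ i e, |L i e - (cap⁻¹ * D i e - a i e * Real.log (y i e))| ≤ δ * a i e)
    (hxh : ∀ i e, 0 ≤ xh i e) (hxA : wS a xh = A0) (hq : ∀ i e, 0 < q i e)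
    (hr : ∀ i e, 0 ≤ r i e) (hr2 : wS a r ≤ e2) (hqr : ∀ i e, q i e ≤ xh i e + r i e)
    (hS : A0 + e2 ≤ S)
    (hdual : ∀ p ∈ PP, ∑ i, a i (p i) * (-Real.log (q i (p i))) ≤
      pv L p - (pair L xh + entA a xh) + e) :
    SolvedA PP cap a D y xh q (e + e2 + 2 * δ * A0) e2 S where
  xh_nonneg := hxh
  q_pos := hq
  q_le := ⟨r, hr, hr2, hqr⟩
  mass := by
    have h := wS_mono ha hqr
    rw [wS_add, hxA] at h
    linarith
  opt := by
    intro p hp
    have h1 := hdual p hp
    have h2 := rel_nonneg ha hxh hy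
    have hm : wS a q ≤ wS a xh + e2 := by
      have h := wS_mono ha hqr
      rw [wS_add] at h
      linarith
    -- the two uses of the approximation
    have h3 : pv L p ≤ cap⁻¹ * pv D p - ∑ i, a i (p i) * Real.log (y i (p i)) + δ * A0 := by
      rw [← hA p hp]
      unfold pv wA
      rw [Finset.mul_sum, Finset.mul_sum, ← Finset.sum_sub_distrib, ← Finset.sum_add_distrib]
      refine Finset.sum_le_sum fun i _ => ?_
      have := (abs_le.1 (hL i (p i))).2
      linarith
    have h4 : cap⁻¹ * pair D xh - ∑ i, ∑ e, a i e * (xh i e * Real.log (y i e)) - δ * A0 ≤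
        pair L xh := by
      rw [← hxA]
      unfold pair wS
      rw [Finset.mul_sum, Finset.mul_sum, ← Finset.sum_sub_distrib, ← Finset.sum_sub_distrib]
      refine Finset.sum_le_sum fun i _ => ?_
      rw [Finset.mul_sum, Finset.mul_sum, ← Finset.sum_sub_distrib, ← Finset.sum_sub_distrib]
      refine Finset.sum_le_sum fun e _ => ?_
      have h5 := (abs_le.1 (hL i e)).1
      have h6 := mul_le_mul_of_nonneg_right h5 (hxh i e)
      nlinarith
    have h7 : wpot a q p = ∑ i, a i (p i) * (-Real.log (q i (p i))) - wA a p + wS a q := by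
      unfold wpot wA
      rw [← Finset.sum_sub_distrib]
      congr 1
      refine Finset.sum_congr rfl fun i _ => ?_
      ring
    have h8 : wpot a y p = -∑ i, a i (p i) * Real.log (y i (p i)) - wA a p + wS a y := by
      unfold wpot wA
      rw [← Finset.sum_neg_distrib, ← Finset.sum_sub_distrib]
      congr 1
      refine Finset.sum_congr rfl fun i _ => ?_
      ring
    rw [h7, h8]
    linarith

/-- **The weighted greedy loop solves the round.** -/
theorem solvedA_of_greedy {H : ℕ → ℝ} {L : I → E → ℝ} {T s : ℕ} {p : ℕ → I → E} {g ζ δ : ℝ}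
    (ha : ∀ i e, 0 < a i e) (hy : ∀ i e, 0 < y i e) (hA0 : 0 < A0)
    (hA : ∀ p ∈ PP, wA a p = A0) (hE : 0 < wT a)
    (hL : ∀ i e, |L i e - (cap⁻¹ * D i e - a i e * Real.log (y i e))| ≤ δ * a i e)
    (hH : HF H T g ζ) (hp : GreedyA H a L PP T p) (hT : 0 < T) (hs : 0 < s) (hsT : s ≤ T) :
    SolvedA PP cap a D y (xx p T) (qq p T)
      (A0 * errA (wT a / A0) T s ζ + wT a / T + 2 * δ * A0) (wT a / T) (A0 + wT a / T) := by
  have hT' : (0 : ℝ) < T := by positivity
  refine solvedA_of_dual (r := fun _ _ => 1 / (T : ℝ)) ha hy hA hL (H782.xx_nonneg p T)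
    (wS_xx_eq hA hp.mem hT) (fun i e => ?_) (fun i e => by positivity) ?_ (fun i e => ?_) le_rfl
    (fun q hq => dual_log ha hA0 hA hE hH hp hT hs hsT hq)
  · unfold qq; positivity
  · refine le_of_eq ?_
    unfold wS wT
    rw [Finset.sum_div]
    refine Finset.sum_congr rfl fun i _ => ?_
    rw [Finset.sum_div]
    refine Finset.sum_congr rfl fun e _ => ?_
    ring
  · refine le_of_eq ?_
    unfold qq xx
    ring

end Solve

end

end Vale.Agent.P315.H93
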